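import Vale.Agent.P243.Fan3
import Vale.Agent.P243.Four

open MeasureTheory Set Vale.Agent.P243

namespace Vale.Agent.Results.P243.BothForms

/-- Both forms of Bang's half-area conjecture fail: a convex body `K` (a tetrahedron) is covered by
finitely many cylinders whose total base area is less than half of the minimal area of a projection
of `K`; and a simplex is covered by four cylinders whose directionwise relative area is at most
`0.4814 < 1/2`. -/
theorem result :
    (∃ (K : Set R3) (m : ℕ) (F : Fin m → Frame) (B : Fin m → Set (ℝ × ℝ)),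
      IsConvexBody K ∧ (∀ i, MeasurableSet (B i)) ∧ (∀ i, area (B i) < ⊤) ∧
      K ⊆ ⋃ i, cylinder (F i) (B i) ∧
      ∑ i, (area (B i)).toReal < 1 / 2 * Amin K) ∧
    ∃ (K : Set R3) (F : Fin 4 → Frame) (B : Fin 4 → Set (ℝ × ℝ)),
      IsConvexBody K ∧ (∀ i, MeasurableSet (B i)) ∧ (∀ i, area (B i) < ⊤) ∧
      (∀ i, 0 < area (shadow (F i) K) ∧ area (shadow (F i) K) < ⊤) ∧
      K ⊆ ⋃ i, cylinder (F i) (B i) ∧ relativeArea K F B ≤ 4814 / 10000 :=
  ⟨Vale.Agent.P243.main, Vale.Agent.P243.Four.main⟩

end Vale.Agent.Results.P243.BothForms
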