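import Vale.Agent.P243.Fan4
import Vale.Agent.P243.Four

open MeasureTheory Set Vale.Agent.P243

namespace Vale.Agent.Results.P243.BothFormsExplicit

/-- Both forms of Bang's half-area conjecture fail, with explicit bounds: `c_3 ≤ 1/2 - 10^{-8}` and
`r_3 ≤ 0.4814`. -/
theorem result :
    (∃ (K : Set R3) (m : ℕ) (F : Fin m → Frame) (B : Fin m → Set (ℝ × ℝ)),
      IsConvexBody K ∧ (∀ i, MeasurableSet (B i)) ∧ (∀ i, area (B i) < ⊤) ∧
      K ⊆ ⋃ i, cylinder (F i) (B i) ∧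
      0 < Amin K ∧ ∑ i, (area (B i)).toReal ≤ (1 / 2 - 1 / 100000000) * Amin K) ∧
    ∃ (K : Set R3) (F : Fin 4 → Frame) (B : Fin 4 → Set (ℝ × ℝ)),
      IsConvexBody K ∧ (∀ i, MeasurableSet (B i)) ∧ (∀ i, area (B i) < ⊤) ∧
      (∀ i, 0 < area (shadow (F i) K) ∧ area (shadow (F i) K) < ⊤) ∧
      K ⊆ ⋃ i, cylinder (F i) (B i) ∧ relativeArea K F B ≤ 4814 / 10000 :=
  ⟨Vale.Agent.P243.main_explicit, Vale.Agent.P243.Four.main⟩

end Vale.Agent.Results.P243.BothFormsExplicit
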