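import Vale.Agent.P243.Four

open MeasureTheory Set Vale.Agent.P243

namespace Vale.Agent.Results.P243.FourCylinders

/-- There is a convex body `K` in three-space (a simplex) covered by four cylinders whose total
directionwise relative area is at most `0.4814 < 1/2`. -/
theorem result : ∃ (K : Set R3) (F : Fin 4 → Frame) (B : Fin 4 → Set (ℝ × ℝ)),
    IsConvexBody K ∧ (∀ i, MeasurableSet (B i)) ∧ (∀ i, area (B i) < ⊤) ∧
    (∀ i, 0 < area (shadow (F i) K) ∧ area (shadow (F i) K) < ⊤) ∧
    K ⊆ ⋃ i, cylinder (F i) (B i) ∧ relativeArea K F B ≤ 4814 / 10000 :=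
  Vale.Agent.P243.Four.main

end Vale.Agent.Results.P243.FourCylinders
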