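import Vale.Agent.P243.Fan3

open MeasureTheory Set Vale.Agent.P243

namespace Vale.Agent.Results.P243.HalfArea

/-- Bang's half-area question has a negative answer: a convex body `K` (a tetrahedron) is covered by
finitely many cylinders whose total base area is less than half of the minimal area of a projection
of `K`. -/
theorem result : ∃ (K : Set R3) (m : ℕ) (F : Fin m → Frame) (B : Fin m → Set (ℝ × ℝ)),
    IsConvexBody K ∧ (∀ i, MeasurableSet (B i)) ∧ (∀ i, area (B i) < ⊤) ∧
    K ⊆ ⋃ i, cylinder (F i) (B i) ∧
    ∑ i, (area (B i)).toReal < 1 / 2 * Amin K :=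
  Vale.Agent.P243.main

end Vale.Agent.Results.P243.HalfArea
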